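import Vale.Agent.P267.Stmt3

/-! The complex structure of a covering space, with the canonical bundle pulled back. -/

open Set Filter
open scoped Manifold ContDiff Topology

noncomputable section

namespace Vale.Agent.P267Q

open Vale.Agent.P267

variable {X : Type} [TopologicalSpace X]

theorem exists_sec {M : Type} [TopologicalSpace M] {π : M → X} (lh : IsLocalHomeomorph π)
    (hs : Function.Surjective π) (m : M) : ∃ φ : OpenPartialHomeomorph M X,
      m ∈ φ.source ∧ π = φ ∧ ∀ y, π (φ.symm y) = y := by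
  classical
  obtain ⟨e, h1, h2⟩ := lh m
  have k : ∀ y ∈ e.target, (if y ∈ e.target then e.symm y else Function.surjInv hs y) =
      e.symm y := fun y hy => if_pos hy
  refine ⟨{ toFun := e
            invFun := fun y => if y ∈ e.target then e.symm y else Function.surjInv hs y
            source := e.source
            target := e.target
            map_source' := fun x hx => e.map_source hx
            map_target' := fun y hy => (k y hy).symm ▸ e.map_target hy
            left_inv' := fun x hx => (k _ (e.map_source hx)).trans (e.left_inv hx)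
            right_inv' := fun y hy => (congrArg e (k y hy)).trans (e.right_inv hy)
            open_source := e.open_source
            open_target := e.open_target
            continuousOn_toFun := e.continuousOn
            continuousOn_invFun := e.continuousOn_symm.congr k }, h1, h2, fun y => ?_⟩
  change π (if y ∈ e.target then e.symm y else Function.surjInv hs y) = y
  split_ifs with hy
  · rw [h2]
    exact e.right_inv hy
  · exact Function.surjInv_eq hs y

theorem pull_mfd2 [ChartedSpace C2 X] [IsManifold 𝓘(ℂ, C2) ω X] {M : Type} [TopologicalSpace M]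
    {π : M → X} (lh : IsLocalHomeomorph π) (hs : Function.Surjective π) :
    ∃ _ : ChartedSpace C2 M, IsManifold 𝓘(ℂ, C2) ω M ∧
      IsLocalDiffeomorph 𝓘(ℂ, C2) 𝓘(ℂ, C2) ω π ∧ canon M = pull π (canon X) := by
  have hc := lh.continuous
  choose φ h1 h2 h3 using exists_sec lh hs
  have e : ∀ m q, φ m q = π q := fun m q => (congrFun (h2 m) q).symm
  let cs : ChartedSpace C2 M :=
    { atlas := range fun m => (φ m).trans (chartAt C2 (π m))
      chartAt := fun m => (φ m).trans (chartAt C2 (π m))
      mem_chart_source := fun m => ⟨h1 m, by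
        change φ m m ∈ (chartAt C2 (π m)).source
        rw [e]
        exact mem_chart_source _ _⟩
      chart_mem_atlas := fun m => mem_range_self m }
  have e' : ∀ m : M, ⇑(extChartAt 𝓘(ℂ, C2) m) = extChartAt 𝓘(ℂ, C2) (π m) ∘ π := fun m =>
    funext fun q => congrArg (chartAt C2 (π m)) (e m q)
  have hπ : ContMDiff 𝓘(ℂ, C2) 𝓘(ℂ, C2) ω π := fun m =>
    contMDiffAt_iff_target.2 ⟨hc.continuousAt, e' m ▸ contMDiffAt_extChartAt⟩
  refine ⟨cs, isManifold_of_contDiffOn _ _ _ ?_, fun m => ⟨⟨(φ m).toPartialEquiv,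
    (φ m).open_source, (φ m).open_target, ?_, fun y hy => ?_⟩, h1 m, fun q _ => (e m q).symm⟩, ?_⟩
  · rintro _ _ ⟨a, rfl⟩ ⟨b, rfl⟩
    have k : ∀ z ∈ ((φ a).trans (chartAt C2 (π a))).target,
        φ b ((φ a).symm ((chartAt C2 (π a)).symm z)) = (chartAt C2 (π a)).symm z := fun z hz =>
      (e b _).trans ((e a _).symm.trans ((φ a).right_inv hz.2))
    refine ((mem_groupoid_of_pregroupoid.1 ((contDiffGroupoid ω 𝓘(ℂ, C2)).compatible
      (chart_mem_atlas C2 (π a)) (chart_mem_atlas C2 (π b)))).1.mono fun z hz =>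
        ⟨⟨hz.1.1.1, ?_⟩, hz.2⟩).congr fun z hz => congrArg (chartAt C2 (π b)) (k z hz.1.1)
    have := hz.1.2.2
    exact (congrArg (· ∈ (chartAt C2 (π b)).source) (k z hz.1.1)).mp this
  · exact hπ.contMDiffOn.congr fun q _ => e m q
  · refine (contMDiffAt_iff_target.2 ⟨(φ m).continuousAt_symm hy, ?_⟩).contMDiffWithinAt
    have k : π ((φ m).symm y) = y := h3 m y
    change ContMDiffAt _ _ _ (extChartAt 𝓘(ℂ, C2) ((φ m).symm y) ∘ (φ m).symm) y
    rw [e', k]
    refine contMDiffAt_extChartAt.congr_of_eventuallyEq ?_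
    filter_upwards with w
    exact congrArg (extChartAt 𝓘(ℂ, C2) y) (h3 m w)
  · funext p q
    have a1 : (chartAt C2 q : M → C2) ∘ (chartAt C2 p).symm =
        chartAt C2 (π q) ∘ (chartAt C2 (π p)).symm := funext fun z =>
      congrArg (chartAt C2 (π q)) ((e q _).trans (h3 p _))
    have a2 : (chartAt C2 p : M → C2) q = chartAt C2 (π p) (π q) :=
      congrArg (chartAt C2 (π p)) (e p q)
    simp only [canon, pull]
    rw [a1, a2]

/-- If `w ∘ p` and `w` are local isomorphisms, so is `p`. -/
theorem loc_of_comp {M Y : Type} [TopologicalSpace M] [TopologicalSpace Y] [ChartedSpace C2 X]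
    [ChartedSpace C2 M] [ChartedSpace C2 Y] {p : M → Y} {w : Y → X}
    (h : IsLocalDiffeomorph 𝓘(ℂ, C2) 𝓘(ℂ, C2) ω (w ∘ p))
    (hw : IsLocalDiffeomorph 𝓘(ℂ, C2) 𝓘(ℂ, C2) ω w) (hp : Continuous p) :
    IsLocalDiffeomorph 𝓘(ℂ, C2) 𝓘(ℂ, C2) ω p := by
  intro x
  have a := hw (p x)
  obtain ⟨Φ, h1, h2⟩ := (h x).comp _ _ a.localInverse_isLocalDiffeomorphAt
  have ho : IsOpen (p ⁻¹' a.localInverse.target) := a.localInverse.open_target.preimage hp
  have hs : ∀ q ∈ Φ.source ∩ p ⁻¹' a.localInverse.target, p q = Φ q := fun q hq =>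
    (a.localInverse_left_inv hq.2).symm.trans (h2 hq.1)
  let e := Φ.toOpenPartialHomeomorph.restrOpen _ ho
  exact ⟨⟨e.toPartialEquiv, e.open_source, e.open_target,
    Φ.contMDiffOn_toFun.mono inter_subset_left, Φ.contMDiffOn_invFun.mono inter_subset_left⟩,
    ⟨h1, a.localInverse_mem_target⟩, hs⟩

end Vale.Agent.P267Q
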