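import Vale.Agent.P267Q.QA
import Vale.Agent.P267M.Base

/-! The finite cyclic covers as compact surfaces. -/

open Set Filter
open scoped Manifold ContDiff Topology

noncomputable section

namespace Vale.Agent.P267Q

open Vale.Agent.P267

variable {X M : Type} [TopologicalSpace X] [TopologicalSpace M]

/-- The orbit relation. -/
def orb (G : M ≃ₜ M) : Setoid M where
  r p q := ∃ k : ℤ, (G ^ k) p = q
  iseqv := by
    refine ⟨fun p => ⟨0, rfl⟩, ?_, ?_⟩
    · rintro p q ⟨k, rfl⟩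
      exact ⟨-k, by rw [← Homeomorph.mul_apply, ← zpow_add, neg_add_cancel]; rfl⟩
    · rintro p q r ⟨k, rfl⟩ ⟨l, rfl⟩
      exact ⟨l + k, by rw [zpow_add]; rfl⟩

theorem orb_open (G : M ≃ₜ M) : IsOpenQuotientMap (Quotient.mk (orb G)) := by
  have hf : ∀ p q, Quotient.mk (orb G) p = Quotient.mk (orb G) q ↔ ∃ k : ℤ, (G ^ k) p = q :=
    fun p q => Quotient.eq
  refine ⟨Quotient.mk_surjective, continuous_quotient_mk', fun U hU => isOpen_coinduced.2 ?_⟩
  have he : Quotient.mk (orb G) ⁻¹' (Quotient.mk (orb G) '' U) =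
      ⋃ k : ℤ, (G ^ k : M ≃ₜ M) ⁻¹' U := by
    ext p
    simp only [mem_preimage, mem_image, mem_iUnion]
    constructor
    · rintro ⟨q, hq, e⟩
      obtain ⟨k, rfl⟩ := (hf _ _).1 e.symm
      exact ⟨k, hq⟩
    · rintro ⟨k, hk⟩
      exact ⟨_, hk, ((hf _ _).2 ⟨k, rfl⟩).symm⟩
  have ho : IsOpen (Quotient.mk (orb G) ⁻¹' (Quotient.mk (orb G) '' U)) := by
    rw [he]
    exact isOpen_iUnion fun k => hU.preimage (G ^ k).continuous
  exact ho

theorem pow_z (g : M ≃ₜ M) (N : ℕ) (k : ℤ) : (g ^ N) ^ k = g ^ (N * k : ℤ) := by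
  rw [zpow_mul, zpow_natCast]

variable [ChartedSpace C2 X] [ChartedSpace C2 M] [IsManifold 𝓘(ℂ, C2) ω X]
  [IsManifold 𝓘(ℂ, C2) ω M] {π : M → X} {g : M ≃ₜ M} {t : M → ℝ} {N : ℕ}

theorem t_N (h : IsCover π g t) (k : ℤ) (p : M) : t (((g ^ N) ^ k) p) = t p + N * k := by
  rw [pow_z, P267M.t_k h]
  push_cast
  rfl

theorem orb_closed [T2Space M] (h : IsCover π g t) (hN : 0 < N) :
    IsClosed {x : M × M | ∃ k : ℤ, ((g ^ N) ^ k) x.1 = x.2} := by
  rw [Set.ofPred_exists]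
  refine LocallyFinite.isClosed_iUnion (fun x => ?_) fun k => ?_
  · have hc : Continuous fun y : M × M => |t y.2 - t y.1| :=
      (((P267M.t_cont h).comp continuous_snd).sub ((P267M.t_cont h).comp continuous_fst)).abs
    refine ⟨{y | |t y.2 - t y.1| < |t x.2 - t x.1| + 1},
      (isOpen_lt hc continuous_const).mem_nhds (by simp), ?_⟩
    refine (finite_Icc (-⌈|t x.2 - t x.1| + 1⌉) ⌈|t x.2 - t x.1| + 1⌉).subset ?_
    rintro k ⟨y, h1, h2⟩
    have h1' : ((g ^ N) ^ k) y.1 = y.2 := h1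
    have h2' : |t y.2 - t y.1| < |t x.2 - t x.1| + 1 := h2
    rw [← h1', t_N h, add_sub_cancel_left] at h2'
    have h3 : |((N : ℝ) * k)| < (⌈|t x.2 - t x.1| + 1⌉ : ℤ) := h2'.trans_le (Int.le_ceil _)
    have h4 : |(N : ℤ) * k| < ⌈|t x.2 - t x.1| + 1⌉ := by exact_mod_cast h3
    have h5 : |k| ≤ |(N : ℤ) * k| := by
      rw [abs_mul]
      refine le_mul_of_one_le_left (abs_nonneg _) ?_
      rw [abs_of_nonneg (by positivity)]
      exact_mod_cast hN
    exact abs_le.1 (h5.trans h4.le)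
  · exact isClosed_eq (((g ^ N) ^ k).continuous.comp continuous_fst) continuous_snd

theorem quot [CompactSpace X] [T2Space M] [ConnectedSpace M]
    (h : IsCover π g t) (hN : 0 < N) : ∃ (Y : Type) (_ : TopologicalSpace Y)
      (_ : ChartedSpace C2 Y) (p1 : M → Y),
      (IsManifold 𝓘(ℂ, C2) ω Y ∧ T2Space Y ∧ CompactSpace Y ∧ ConnectedSpace Y) ∧
        IsCyclic p1 (g ^ N) ∧ pull p1 (canon Y) = pull π (canon X) ∧
          ∃ w : Y → X, IsLocalDiffeomorph 𝓘(ℂ, C2) 𝓘(ℂ, C2) ω w ∧ w ∘ p1 = π := by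
  have hq := orb_open (g ^ N)
  have hf : ∀ p q, Quotient.mk (orb (g ^ N)) p = Quotient.mk (orb (g ^ N)) q ↔
      ∃ k : ℤ, ((g ^ N) ^ k) p = q := fun p q => Quotient.eq
  have lπ := h.loc.isLocalHomeomorph
  let w : Quotient (orb (g ^ N)) → X := Quotient.lift π (by
    rintro p q ⟨k, rfl⟩
    rw [pow_z, P267M.pi_k h])
  have hw : w ∘ Quotient.mk (orb (g ^ N)) = π := rfl
  have l1 : IsLocalHomeomorph (Quotient.mk (orb (g ^ N))) := by
    refine isLocalHomeomorph_iff_isOpenEmbedding_restrict.2 fun p => ?_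
    obtain ⟨U, hU, hp, hi⟩ := lπ.isLocallyInjective p
    refine ⟨U, hU.mem_nhds hp, .of_continuous_injective_isOpenMap
      (hq.continuous.comp continuous_subtype_val) (fun a b e => Subtype.ext ?_)
      (hq.isOpenMap.comp hU.isOpenMap_subtype_val)⟩
    exact hi a.2 b.2 (congrArg w e)
  have l2 : IsLocalHomeomorph w := by
    have := IsLocalHomeomorphOn.of_comp_right (g := w) (s := univ)
      (hw ▸ lπ.isLocalHomeomorphOn) l1.isLocalHomeomorphOn
    rw [image_univ, hq.surjective.range_eq] at this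
    exact isLocalHomeomorph_iff_isLocalHomeomorphOn_univ.2 this
  obtain ⟨cs, a1, a2, a3⟩ := pull_mfd2 l2 (Function.Surjective.of_comp (hw ▸ h.surj))
  have b1 := fun p => P267M.g_hol h N p
  have b2 := fun p => P267M.g_hol h (-N) p
  rw [zpow_natCast] at b1
  rw [zpow_neg, zpow_natCast] at b2
  have hN' : (0 : ℝ) < N := by exact_mod_cast hN
  refine ⟨_, _, cs, Quotient.mk (orb (g ^ N)), ⟨a1, ?_, ⟨?_⟩,
    hq.surjective.connectedSpace hq.continuous⟩, ⟨loc_of_comp (hw ▸ h.loc) a2 hq.continuous,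
    hq.surjective, hf, b1, b2, fun k p e => ?_⟩, by rw [a3]; rfl, w, a2, hw⟩
  · rw [t2Space_iff_of_isOpenQuotientMap hq]
    simp only [hf]
    exact orb_closed h hN
  · refine (eq_univ_of_forall fun y => ?_) ▸ (P267M.t_proper h 0 N).image hq.continuous
    obtain ⟨p, rfl⟩ := hq.surjective y
    refine ⟨((g ^ N) ^ (-⌊t p / N⌋)) p, ?_, ((hf _ _).2 ⟨_, rfl⟩).symm⟩
    have c1 := Int.floor_le (t p / N)
    have c2 := Int.lt_floor_add_one (t p / N)
    rw [le_div_iff₀ hN'] at c1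
    rw [div_lt_iff₀ hN'] at c2
    rw [mem_preimage, t_N h]
    push_cast
    constructor <;> nlinarith
  · have c := t_N (N := N) h k p
    rw [e, left_eq_add, mul_eq_zero] at c
    exact_mod_cast c.resolve_left hN'.ne'

end Vale.Agent.P267Q
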